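import Mathlib
import Vale.Agent.P032.Six.Gap

/-!
# P032: star palettes

In a maximal family (`Mx U`, overlaps allowed) the star palette `St U x` is `Pal U x` on `XX U`
and consists of colours `i` with `x ∈ U i` off `XX U`.  The sets `{x | i ∈ St U x}` are a closed
cover of the plane; off `XX U` the unit circle about `x` carries no colour of `St U x`.
-/

open Set Filter Topology Metric

noncomputable section

namespace Vale.Agent.P032.Six

variable {k : ℕ} {U : Fin k → Set ℂ}

/-- the star palette -/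
def St (U : Fin k → Set ℂ) (x : ℂ) : Set (Fin k) :=
  {i | x ∈ closure (U i) ∧ ∀ j, infDist x (U j)ᶜ ≤ infDist x (U i)ᶜ}

theorem St_subset (U : Fin k → Set ℂ) (x : ℂ) : St U x ⊆ Pal U x := fun _ hi => hi.1

theorem isClosed_St (U : Fin k → Set ℂ) (i : Fin k) : IsClosed {x | i ∈ St U x} := by
  have h1 : {x | i ∈ St U x} =
      closure (U i) ∩ ⋂ j, {x | infDist x (U j)ᶜ ≤ infDist x (U i)ᶜ} := by
    ext x; simp [St]
  rw [h1]
  exact isClosed_closure.inter (isClosed_iInter fun j =>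
    isClosed_le (continuous_infDist_pt _) (continuous_infDist_pt _))

/-- star palettes are upper semicontinuous -/
theorem st_nhd (U : Fin k → Set ℂ) (x : ℂ) : ∀ᶠ z in 𝓝 x, St U z ⊆ St U x := by
  have h1 : ∀ i, ∀ᶠ z in 𝓝 x, i ∈ St U z → i ∈ St U x := by
    intro i
    by_cases hx : i ∈ St U x
    · exact Eventually.of_forall fun z _ => hx
    · filter_upwards [(isClosed_St U i).isOpen_compl.mem_nhds hx] with z hz hz'
      exact absurd hz' hz
  filter_upwards [eventually_all.2 h1] with z hz i hi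
  exact hz i hi

theorem st_ball (U : Fin k → Set ℂ) (x : ℂ) :
    ∃ r > 0, ∀ z, dist z x < r → St U z ⊆ St U x :=
  Metric.eventually_nhds_iff.1 (st_nhd U x) |>.imp fun _ h => ⟨h.1, fun _ hz => h.2 hz⟩

/-- on `XX` the star palette is the palette -/
theorem St_eq_Pal {x : ℂ} (hx : x ∈ XX U) : St U x = Pal U x := by
  have h0 : ∀ j, infDist x (U j)ᶜ = 0 := fun j => infDist_zero_of_mem (hx j)
  refine Subset.antisymm (St_subset U x) fun i hi => ⟨hi, fun j => ?_⟩
  rw [h0, h0]

theorem Mx.compl_nonempty (h : Mx U) (i : Fin k) : ((U i)ᶜ).Nonempty := by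
  by_contra hcon
  rw [not_nonempty_iff_eq_empty, compl_empty_iff] at hcon
  have h1 : (0 : ℂ) ∈ U i := by rw [hcon]; trivial
  have h2 : (1 : ℂ) ∈ U i := by rw [hcon]; trivial
  exact h.notMem' h1 (by simp) (subset_closure h2)

/-- off `XX` the star palette consists of colours of open sets containing the point -/
theorem Mx.mem_U_of_St (h : Mx U) {x : ℂ} (hx : x ∉ XX U) {i : Fin k} (hi : i ∈ St U x) :
    x ∈ U i := by
  obtain ⟨j, hj⟩ : ∃ j, x ∈ U j := by
    by_contra hcon
    push Not at hcon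
    exact hx hcon
  have h1 : 0 < infDist x (U j)ᶜ :=
    ((h.isOpen j).isClosed_compl.notMem_iff_infDist_pos (h.compl_nonempty j)).1
      (fun hc => hc hj)
  have h2 : 0 < infDist x (U i)ᶜ := lt_of_lt_of_le h1 (hi.2 j)
  have h3 := ((h.isOpen i).isClosed_compl.notMem_iff_infDist_pos (h.compl_nonempty i)).2 h2
  simpa using h3

/-- star palettes are nonempty -/
theorem Mx.St_nonempty (h : Mx U) (x : ℂ) : (St U x).Nonempty := by
  by_cases hx : x ∈ XX U
  · rw [St_eq_Pal hx]
    obtain ⟨i, hi⟩ := h.cover x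
    exact ⟨i, hi⟩
  · have hx' : ∃ j, x ∈ U j := by
      by_contra hcon
      push Not at hcon
      exact hx hcon
    obtain ⟨j, hj⟩ := hx'
    have : Nonempty (Fin k) := ⟨j⟩
    obtain ⟨i, hi⟩ := Finite.exists_max (fun i => infDist x (U i)ᶜ)
    have h1 : 0 < infDist x (U j)ᶜ :=
      ((h.isOpen j).isClosed_compl.notMem_iff_infDist_pos (h.compl_nonempty j)).1
        (fun hc => hc hj)
    have h2 : 0 < infDist x (U i)ᶜ := lt_of_lt_of_le h1 (hi j)
    have h3 := ((h.isOpen i).isClosed_compl.notMem_iff_infDist_pos (h.compl_nonempty i)).2 h2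
    have h4 : x ∈ U i := by simpa using h3
    exact ⟨i, subset_closure h4, hi⟩

/-- a star contact forces the point into `XX` -/
theorem Mx.XX_of_contact (h : Mx U) {x y : ℂ} {i : Fin k} (hxy : dist x y = 1)
    (hi : i ∈ St U x) (hy : i ∈ Pal U y) : x ∈ XX U := by
  by_contra hx
  exact h.notMem' (h.mem_U_of_St hx hi) hxy hy

/-- two star contacts: both points are in `XX`, and there `St = Pal` -/
theorem Mx.XX_of_contact2 (h : Mx U) {x y : ℂ} {i : Fin k} (hxy : dist x y = 1)
    (hi : i ∈ St U x) (hy : i ∈ St U y) : x ∈ XX U ∧ y ∈ XX U :=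
  ⟨h.XX_of_contact hxy hi hy.1, h.XX_of_contact (by rwa [dist_comm]) hy hi.1⟩

/-- **[2]** for star palettes, at arbitrary points -/
theorem Mx.not_sub_St (h : Mx U) (hZ : ∀ z ∈ XX U, (Pal U z).ncard ≤ 3) {x y : ℂ}
    (hxy : dist y x = 1) : ¬ St U y ⊆ St U x := by
  intro hsub
  obtain ⟨i, hi⟩ := h.St_nonempty y
  obtain ⟨hy, hx⟩ := h.XX_of_contact2 hxy hi (hsub hi)
  rw [St_eq_Pal hx, St_eq_Pal hy] at hsub
  exact h.not_sub hx hxy (hZ x hx) hsub

/-- Lemma X, arc form, for star palettes -/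
theorem Mx.lemmaX0_St (h : Mx U) (hZ : ∀ z ∈ XX U, (Pal U z).ncard ≤ 3) {u p : ℂ} {t : Fin k}
    (ht : St U p ⊆ insert t (St U u)) :
    ∀ᶠ q in 𝓝[sphere u 1] p, t ∈ St U q := by
  filter_upwards [mem_nhdsWithin_of_mem_nhds (st_nhd U p), self_mem_nhdsWithin] with q h1 h2
  by_contra hcon
  refine h.not_sub_St hZ (x := u) (y := q) h2 fun m hm => ?_
  rcases ht (h1 hm) with rfl | h4
  · exact absurd hm hcon
  · exact h4

/-- **Lemma X** for star palettes -/
theorem Mx.lemmaX_St (h : Mx U) (hZ : ∀ z ∈ XX U, (Pal U z).ncard ≤ 3) {u p v : ℂ} {t : Fin k}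
    (hup : dist p u = 1) (ht : St U p ⊆ insert t (St U u)) (hv : dist p v = 1)
    (htv : t ∈ Pal U v) : v = u ∨ v + u = 2 * p :=
  h.partner_line hup ((h.lemmaX0_St hZ ht).mono fun _ hq => hq.1) hv htv

/-- **[5]** for star palettes -/
theorem Mx.five_St (h : Mx U) (hZ : ∀ z ∈ XX U, (Pal U z).ncard ≤ 3) {u u' q : ℂ}
    (hcov : ∀ i, i ∈ St U u ∨ i ∈ St U u') (hne : u ≠ u')
    (hq : dist q u = 1) (hq' : dist q u' = 1) (hne2 : u + u' ≠ 2 * q) (s : Fin k) :
    ∃ t ∈ St U q, t ∈ St U u ∧ t ≠ s := by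
  by_contra hcon
  push Not at hcon
  have hsub : St U q ⊆ insert s (St U u') := by
    intro m hm
    rcases hcov m with h1 | h1
    · exact Or.inl (hcon m hm h1)
    · exact Or.inr h1
  by_cases hsu : s ∈ St U u
  · have := h.lemmaX_St hZ hq' hsub hq hsu.1
    rcases this with h1 | h1
    · exact hne h1
    · exact hne2 h1
  · refine h.not_sub_St hZ hq' fun m hm => ?_
    rcases hcov m with h1 | h1
    · exact absurd (hcon m hm h1 ▸ h1) hsu
    · exact h1

end Vale.Agent.P032.Six
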