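import Mathlib
import Vale.Agent.P032.S5.H672.Star

/-!
# P032: star palettes have at most three colours (six colours)
-/

open Set Filter Topology Metric

noncomputable section

namespace Vale.Agent.P032.Six

/-- the primitive sixth root of unity -/
def om6 : ℂ := ⟨1 / 2, Real.sqrt 3 / 2⟩

theorem norm_om6 : ‖om6‖ = 1 := by
  have h3 : Real.sqrt 3 * Real.sqrt 3 = 3 := Real.mul_self_sqrt (by norm_num)
  rw [Complex.norm_eq_sqrt_sq_add_sq, Real.sqrt_eq_one]
  simp only [om6]
  nlinarith

theorem norm_om6_sub_one : ‖om6 - 1‖ = 1 := by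
  have h3 : Real.sqrt 3 * Real.sqrt 3 = 3 := Real.mul_self_sqrt (by norm_num)
  rw [Complex.norm_eq_sqrt_sq_add_sq, Real.sqrt_eq_one]
  simp only [om6, Complex.sub_re, Complex.one_re, Complex.sub_im, Complex.one_im]
  nlinarith

/-- rotation by sixty degrees about `x` -/
def rot6 (x y : ℂ) : ℂ := x + om6 * (y - x)

theorem dist_rot6 {x y : ℂ} (h : dist y x = 1) : dist (rot6 x y) x = 1 := by
  rw [dist_eq_norm] at h ⊢
  rw [rot6, add_sub_cancel_left, norm_mul, norm_om6, h, one_mul]

theorem dist_rot6' {x y : ℂ} (h : dist y x = 1) : dist (rot6 x y) y = 1 := by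
  rw [dist_eq_norm] at h ⊢
  have : rot6 x y - y = (om6 - 1) * (y - x) := by rw [rot6]; ring
  rw [this, norm_mul, norm_om6_sub_one, h, one_mul]

theorem isPreconnected_circle_card (x : ℂ) (r : ℝ) : IsPreconnected (sphere x r) := by
  refine isPreconnected_sphere ?_ x r
  rw [Complex.rank_real_complex]
  norm_num

variable {U : Fin 6 → Set ℂ}

/-- a point lies in at most three of the open sets -/
theorem Mx.K0_card (h : Mx U) (hZ : ∀ z ∈ XX U, (Pal U z).ncard ≤ 3) (x : ℂ) :
    {i | x ∈ U i}.ncard ≤ 3 := by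
  by_contra hcon
  push Not at hcon
  set A : Set (Fin 6) := {i | x ∈ U i} with hA
  have hAc : Aᶜ.ncard ≤ 2 := by
    have h1 := Set.ncard_add_ncard_compl A
    rw [Nat.card_eq_fintype_card, Fintype.card_fin] at h1
    omega
  have hpal : ∀ y, dist y x = 1 → Pal U y ⊆ Aᶜ := by
    intro y hy i hi hiA
    exact h.notMem' (x := x) (y := y) hiA (by rwa [dist_comm]) hi
  -- all points of the circle are off `XX`
  have hoff : ∀ y, dist y x = 1 → y ∉ XX U := by
    intro y hy hyX
    obtain ⟨i, hi⟩ := h.cover y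
    obtain ⟨j, hj, hji⟩ := h.two hyX i
    have h4 : ({i, j} : Set (Fin 6)) ⊆ Pal U y := by
      rintro m (rfl | rfl)
      · exact hi
      · exact hj
    have h5 := Set.ncard_le_ncard h4 (Set.toFinite _)
    rw [Set.ncard_pair hji.symm] at h5
    have h6 : Pal U y = Aᶜ := Set.eq_of_subset_of_ncard_le (hpal y hy) (by omega)
    refine h.not_sub hyX (dist_rot6' hy) (hZ y hyX) ?_
    rw [h6]
    exact hpal _ (dist_rot6 hy)
  have hin : ∀ y, dist y x = 1 → ∃ i, y ∈ U i := by
    intro y hy
    by_contra hc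
    push Not at hc
    exact hoff y hy hc
  -- disjointness
  have hdis : ∀ y, dist y x = 1 → ∀ e f, e ≠ f → y ∈ U e → y ∉ U f := by
    intro y hy e f hef he hf
    have hd : dist y (rot6 x y) = 1 := by rw [dist_comm]; exact dist_rot6' hy
    obtain ⟨i, hi⟩ := h.cover (rot6 x y)
    have h1 : i ∈ Aᶜ := hpal _ (dist_rot6 hy) hi
    have h2 : i ≠ e := by rintro rfl; exact h.notMem' he hd hi
    have h3 : i ≠ f := by rintro rfl; exact h.notMem' hf hd hi
    have he' : e ∈ Aᶜ := hpal y hy (subset_closure he)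
    have hf' : f ∈ Aᶜ := hpal y hy (subset_closure hf)
    have h4 : ({i, e, f} : Set (Fin 6)) ⊆ Aᶜ := by
      rintro m (rfl | rfl | rfl)
      · exact h1
      · exact he'
      · exact hf'
    have h5 := Set.ncard_le_ncard h4 (Set.toFinite _)
    rw [Set.ncard_insert_of_notMem (by simp [h2, h3]), Set.ncard_pair hef] at h5
    omega
  have hy0 : dist (x + 1) x = 1 := by simp
  obtain ⟨e, he⟩ := hin _ hy0
  have hpre := isPreconnected_iff_subset_of_disjoint.1 (isPreconnected_circle_card x 1) (U e)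
    (⋃ f ∈ {f : Fin 6 | f ≠ e}, U f) (h.isOpen e)
    (isOpen_biUnion fun f _ => h.isOpen f) ?_ ?_
  · rcases hpre with h1 | h1
    · have h2 : rot6 x (x + 1) ∈ U e := h1 (dist_rot6 hy0)
      exact h.notMem' he (by rw [dist_comm]; exact dist_rot6' hy0) (subset_closure h2)
    · have h2 := h1 (show (x + 1) ∈ sphere x 1 from hy0)
      simp only [mem_ofPred_eq, mem_iUnion] at h2
      obtain ⟨f, hfe, hf⟩ := h2
      exact hdis _ hy0 e f (Ne.symm hfe) he hf
  · intro y hy
    obtain ⟨f, hf⟩ := hin y hy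
    by_cases hfe : f = e
    · exact Or.inl (hfe ▸ hf)
    · right
      simp only [mem_ofPred_eq, mem_iUnion]
      exact ⟨f, hfe, hf⟩
  · ext y
    simp only [mem_inter_iff, mem_ofPred_eq, mem_iUnion, mem_empty_iff_false, iff_false, not_and,
      not_exists]
    intro hy hye f hfe hf
    exact hdis y hy e f (Ne.symm hfe) hye hf

/-- **star palettes have at most three colours everywhere** -/
theorem Mx.St_card (h : Mx U) (hZ : ∀ z ∈ XX U, (Pal U z).ncard ≤ 3) (x : ℂ) :
    (St U x).ncard ≤ 3 := by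
  by_cases hx : x ∈ XX U
  · rw [St_eq_Pal hx]; exact hZ x hx
  · exact (Set.ncard_le_ncard (fun i hi => h.mem_U_of_St hx hi) (Set.toFinite _)).trans
      (h.K0_card hZ x)

end Vale.Agent.P032.Six
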